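import Vale.Agent.P245.H208.Main
import Vale.Agent.P245.H413.Num2

/-!
# Effective rank of the gradient covariance: final form
-/

open MeasureTheory Real
open scoped ContDiff

namespace Vale.Agent.P245.H208

/-- the inequalities with the effective rank, from the affine Poincaré inequality -/
theorem final
    (h : ∃ C : ℝ, 0 < C ∧ ∀ (n : ℕ) (μ : Measure (EuclideanSpace ℝ (Fin n)))
      [IsProbabilityMeasure μ],
      HasLogConcaveDensity μ → ∀ (b : Fin n → ℝ) (K : Matrix (Fin n) (Fin n) ℝ),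
      (∀ i, ∫ x, x i ∂μ = b i) → (∀ i j, ∫ x, (x i - b i) * (x j - b j) ∂μ = K i j) →
      ∀ f : EuclideanSpace ℝ (Fin n) → ℝ, ContDiff ℝ ∞ f → HasCompactSupport f →
        (∫ x, f x ^ 2 ∂μ) - (∫ x, f x ∂μ) ^ 2 ≤
          C * ∫ x, ∑ i, ∑ j, K i j * (gradient f x i * gradient f x j) ∂μ) :
    ∃ C : ℝ, 0 < C ∧ ∀ (n : ℕ), 1 ≤ n →
    ∀ (μ : Measure (EuclideanSpace ℝ (Fin n))) [IsProbabilityMeasure μ], HasLogConcaveDensity μ →
    ∀ a : ℝ, 0 < a → LinearlySubgaussian μ a →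
    ∀ b : OrthonormalBasis (Fin n) ℝ (EuclideanSpace ℝ (Fin n)),
    ∀ f : EuclideanSpace ℝ (Fin n) → ℝ, ContDiff ℝ ∞ f → HasCompactSupport f →
    ∀ N : ℝ, N = (∑ i, √(∫ x, inner ℝ (b i) (gradient f x) ^ 2 ∂μ)) ^ 2
        / ∫ x, ‖gradient f x‖ ^ 2 ∂μ →
      (∀ k : ℝ, 1 ≤ k → Entropy μ (fun x => f x ^ 2) ≤
          C * k * a ^ 2 * ∫ x, ‖gradient f x‖ ^ 2 ∂μ + N * exp (-k) * ∫ x, f x ^ 2 ∂μ) ∧
      Entropy μ (fun x => f x ^ 2) ≤
          C * (1 + log N) * a ^ 2 * ∫ x, ‖gradient f x‖ ^ 2 ∂μ ∧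
      Entropy μ (fun x => f x ^ 2) ≤
          C * (1 + log (1 + N * (∫ x, f x ^ 2 ∂μ) / ((∫ x, f x ^ 2 ∂μ)
            + Entropy μ (fun x => f x ^ 2)))) * a ^ 2 * ∫ x, ‖gradient f x‖ ^ 2 ∂μ ∧
      (0 < ∫ x, ‖gradient f x‖ ^ 2 ∂μ → 1 ≤ N ∧ N ≤ n) := by
  obtain ⟨C₂, hC₂, hkls⟩ := h
  obtain ⟨C₄, hC₄, hmain⟩ := main hC₂ hkls
  obtain ⟨C₁, hC₁, hlin⟩ := lin
  refine ⟨C₄ + 6 * C₁, by positivity, ?_⟩
  intro n hn μ _ hlc a ha hsub b f hf hfc N hN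
  obtain ⟨m1, m2⟩ := hmain n hn μ hlc a ha hsub b f hf hfc N hN
  have hE0 : 0 ≤ Entropy μ (fun x => f x ^ 2) := ent_nonneg hf.continuous hfc
  have hS0 : 0 ≤ ∫ x, f x ^ 2 ∂μ := integral_nonneg fun x => sq_nonneg _
  set I : Fin n → ℝ := fun i => ∫ x, inner ℝ (b i) (gradient f x) ^ 2 ∂μ with hI
  have hI0 : ∀ i, 0 ≤ I i := fun i => integral_nonneg fun x => sq_nonneg _
  have hsum : ∑ i, I i = ∫ x, ‖gradient f x‖ ^ 2 ∂μ := sum_energy b hf hfc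
  have hJ0 : 0 ≤ ∫ x, ‖gradient f x‖ ^ 2 ∂μ := by
    rw [← hsum]; exact Finset.sum_nonneg fun i _ => hI0 i
  have hNn : 0 ≤ N := by
    rw [hN]; positivity
  have hup : ∀ d : ℝ, 0 ≤ d → C₄ * d * a ^ 2 * ∫ x, ‖gradient f x‖ ^ 2 ∂μ
      ≤ (C₄ + 6 * C₁) * d * a ^ 2 * ∫ x, ‖gradient f x‖ ^ 2 ∂μ := by
    intro d hd
    have h1 : 0 ≤ 6 * C₁ * d * a ^ 2 * ∫ x, ‖gradient f x‖ ^ 2 ∂μ := by positivity
    linarith
  have h1log : 0 ≤ log (1 + N * (∫ x, f x ^ 2 ∂μ) / ((∫ x, f x ^ 2 ∂μ)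
      + Entropy μ (fun x => f x ^ 2))) := by
    apply Real.log_nonneg
    have : 0 ≤ N * (∫ x, f x ^ 2 ∂μ) / ((∫ x, f x ^ 2 ∂μ)
      + Entropy μ (fun x => f x ^ 2)) := by positivity
    linarith
  rcases hJ0.eq_or_lt with hJ | hJ
  · rw [← hJ] at m1 m2 ⊢
    simp only [mul_zero, zero_add, lt_irrefl, false_imp_iff, and_true] at m1 m2 ⊢
    refine ⟨fun k _ => m1.trans (by positivity), m1, m1⟩
  · have hnum : 1 ≤ N ∧ ∃ t : Fin n → ℝ, (∀ i, 0 < t i) ∧ (∀ i, t i ≤ 1) ∧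
        ∑ i, I i / t i ≤ 2 * (∫ x, ‖gradient f x‖ ^ 2 ∂μ) ∧ ∑ i, t i ≤ 1 + N :=
      H413.num2 (by omega) I hI0 _ N hsum.symm hJ hN
    obtain ⟨hN1, t, ht0, ht1, hIt, hst⟩ := hnum
    have hlogN : 0 ≤ log N := Real.log_nonneg hN1
    refine ⟨fun k hk => ?_, m1.trans (hup _ (by linarith)), m2.trans (hup _ (by linarith)),
      fun _ => ⟨hN1, ?_⟩⟩
    · have h2 := hlin n hn μ hlc a ha hsub b t ht0 ht1 f hf hfc (k + 2) (by linarith)
      have h3 : C₁ * (k + 2) * a ^ 2 * ∑ i, I i / t i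
          ≤ C₁ * (k + 2) * a ^ 2 * (2 * (∫ x, ‖gradient f x‖ ^ 2 ∂μ)) :=
        mul_le_mul_of_nonneg_left hIt (by positivity)
      have h4 : C₁ * (k + 2) * a ^ 2 * (2 * (∫ x, ‖gradient f x‖ ^ 2 ∂μ))
          ≤ 6 * C₁ * k * a ^ 2 * ∫ x, ‖gradient f x‖ ^ 2 ∂μ := by
        have : 0 ≤ C₁ * (k - 1) * a ^ 2 * ∫ x, ‖gradient f x‖ ^ 2 ∂μ :=
          mul_nonneg (mul_nonneg (mul_nonneg hC₁.le (by linarith)) (sq_nonneg a)) hJ0
        nlinarith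
      have h5 : exp (-(k + 2)) ≤ exp (-k) * (1 / 3) := by
        rw [show -(k + 2) = -k + -2 by ring, exp_add]
        apply mul_le_mul_of_nonneg_left _ (exp_pos _).le
        rw [exp_neg, one_div]
        apply inv_anti₀ (by norm_num)
        have := add_one_le_exp (2 : ℝ)
        linarith
      have h6 : (1 + ∑ i, t i) * exp (-(k + 2)) ≤ N * exp (-k) := by
        calc (1 + ∑ i, t i) * exp (-(k + 2)) ≤ (3 * N) * exp (-(k + 2)) := by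
              apply mul_le_mul_of_nonneg_right _ (exp_pos _).le
              linarith
          _ ≤ (3 * N) * (exp (-k) * (1 / 3)) := by
              apply mul_le_mul_of_nonneg_left h5 (by linarith)
          _ = N * exp (-k) := by ring
      have h7 := mul_le_mul_of_nonneg_right h6 hS0
      have h8 : 0 ≤ C₄ * k * a ^ 2 * ∫ x, ‖gradient f x‖ ^ 2 ∂μ := by positivity
      have h9 : (C₄ + 6 * C₁) * k * a ^ 2 * ∫ x, ‖gradient f x‖ ^ 2 ∂μ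
          = C₄ * k * a ^ 2 * (∫ x, ‖gradient f x‖ ^ 2 ∂μ)
            + 6 * C₁ * k * a ^ 2 * ∫ x, ‖gradient f x‖ ^ 2 ∂μ := by ring
      rw [h9]
      linarith
    · rw [hN, div_le_iff₀ hJ, ← hsum]
      have h10 := sq_sum_le_card_mul_sum_sq (s := (Finset.univ : Finset (Fin n)))
        (f := fun i => √(I i))
      simp only [Finset.card_univ, Fintype.card_fin] at h10
      refine h10.trans (le_of_eq ?_)
      congr 1
      exact Finset.sum_congr rfl fun i _ => Real.sq_sqrt (hI0 i)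

end Vale.Agent.P245.H208
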