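import Vale.Agent.P245.N.Eff
import Vale.Agent.P245.H48.Map
import Vale.Agent.P245.H48.Wb

/-!
# Anisotropic form of the inequality at all scales (second copy of row LIN of helper48)
-/

open MeasureTheory Real
open scoped ContDiff

namespace Vale.Agent.P245.H208

variable {n : ℕ}

/-- diagonal scaling -/
noncomputable def scale (r : Fin n → ℝ) :
    EuclideanSpace ℝ (Fin n) →L[ℝ] EuclideanSpace ℝ (Fin n) :=
  LinearMap.toContinuousLinearMap
    { toFun := fun x => WithLp.toLp 2 (fun i => r i * x i)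
      map_add' := by
        intro x y; ext i; simp [mul_add]
      map_smul' := by
        intro c x; ext i; simp; ring }

theorem scale_apply (r : Fin n → ℝ) (x : EuclideanSpace ℝ (Fin n)) (i : Fin n) :
    scale r x i = r i * x i := rfl

/-- diagonal scaling as an equivalence -/
noncomputable def scaleE (r : Fin n → ℝ) (hr : ∀ i, r i ≠ 0) :
    EuclideanSpace ℝ (Fin n) ≃L[ℝ] EuclideanSpace ℝ (Fin n) :=
  ContinuousLinearEquiv.equivOfInverse (scale r) (scale fun i => (r i)⁻¹)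
    (by intro x; ext i; simp only [scale_apply]; rw [← mul_assoc, inv_mul_cancel₀ (hr i), one_mul])
    (by intro x; ext i; simp only [scale_apply]; rw [← mul_assoc, mul_inv_cancel₀ (hr i), one_mul])

/-- the map `x ↦ (r_i ⟨b_i, x⟩)_i` -/
noncomputable def mp (b : OrthonormalBasis (Fin n) ℝ (EuclideanSpace ℝ (Fin n)))
    (r : Fin n → ℝ) (hr : ∀ i, r i ≠ 0) :
    EuclideanSpace ℝ (Fin n) ≃L[ℝ] EuclideanSpace ℝ (Fin n) :=
  b.repr.toContinuousLinearEquiv.trans (scaleE r hr)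

theorem mp_apply (b : OrthonormalBasis (Fin n) ℝ (EuclideanSpace ℝ (Fin n)))
    (r : Fin n → ℝ) (hr : ∀ i, r i ≠ 0) (x : EuclideanSpace ℝ (Fin n)) (i : Fin n) :
    mp b r hr x i = r i * inner ℝ (b i) x := by
  have : mp b r hr x i = r i * b.repr x i := rfl
  rw [this, OrthonormalBasis.repr_apply_apply]

theorem mp_symm_single (b : OrthonormalBasis (Fin n) ℝ (EuclideanSpace ℝ (Fin n)))
    (r : Fin n → ℝ) (hr : ∀ i, r i ≠ 0) (i : Fin n) :
    (mp b r hr).symm (EuclideanSpace.single i (1 : ℝ)) = (r i)⁻¹ • b i := by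
  rw [ContinuousLinearEquiv.symm_apply_eq]
  ext j
  rw [mp_apply, inner_smul_right]
  by_cases h : j = i
  · subst h
    have : inner ℝ (b j) (b j) = (1 : ℝ) := by
      rw [real_inner_self_eq_norm_sq, b.orthonormal.1 j]; norm_num
    rw [this]
    simp [hr j]
  · have : inner ℝ (b j) (b i) = (0 : ℝ) := b.orthonormal.2 h
    rw [this]
    simp [h]

theorem norm_mp_sq (b : OrthonormalBasis (Fin n) ℝ (EuclideanSpace ℝ (Fin n)))
    (r : Fin n → ℝ) (hr : ∀ i, r i ≠ 0) (x : EuclideanSpace ℝ (Fin n)) :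
    ‖mp b r hr x‖ ^ 2 = ∑ i, r i ^ 2 * inner ℝ (b i) x ^ 2 := by
  rw [EuclideanSpace.norm_sq_eq]
  apply Finset.sum_congr rfl
  intro i _
  rw [mp_apply, norm_eq_abs, sq_abs]
  ring

theorem sub_le_one {μ : Measure (EuclideanSpace ℝ (Fin n))} [IsProbabilityMeasure μ] {a : ℝ}
    (hsub : LinearlySubgaussian μ a) (θ : EuclideanSpace ℝ (Fin n)) (hθ : ‖θ‖ ≤ 1) :
    ∫⁻ x, ENNReal.ofReal (exp (inner ℝ x θ ^ 2 / a ^ 2)) ∂μ ≤ 2 := by
  rcases eq_or_ne θ 0 with h | h
  · subst h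
    simp
  · have hθ0 : 0 < ‖θ‖ := norm_pos_iff.2 h
    refine le_trans (lintegral_mono fun x => ?_) (hsub (‖θ‖⁻¹ • θ) (by
      rw [norm_smul, norm_inv, norm_norm, inv_mul_cancel₀ hθ0.ne']))
    apply ENNReal.ofReal_le_ofReal
    apply exp_le_exp.2
    apply div_le_div_of_nonneg_right _ (sq_nonneg a)
    rw [inner_smul_right, mul_pow]
    have h1 : (1 : ℝ) ≤ (‖θ‖⁻¹) ^ 2 := by
      have := one_le_inv₀ hθ0 |>.2 hθ
      nlinarith
    nlinarith [sq_nonneg (inner ℝ x θ : ℝ)]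

theorem inner_mp (b : OrthonormalBasis (Fin n) ℝ (EuclideanSpace ℝ (Fin n)))
    (r : Fin n → ℝ) (hr : ∀ i, r i ≠ 0) (x θ : EuclideanSpace ℝ (Fin n)) :
    inner ℝ (mp b r hr x) θ = inner ℝ x (∑ i, (r i * θ i) • b i) := by
  rw [inner_sum, PiLp.inner_apply]
  apply Finset.sum_congr rfl
  intro i _
  rw [mp_apply, inner_smul_right, real_inner_comm x (b i)]
  simp
  ring

theorem norm_sum_sq (b : OrthonormalBasis (Fin n) ℝ (EuclideanSpace ℝ (Fin n)))
    (c : Fin n → ℝ) : ‖∑ i, c i • b i‖ ^ 2 = ∑ i, c i ^ 2 := by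
  rw [← real_inner_self_eq_norm_sq, b.orthonormal.inner_sum c c Finset.univ]
  apply Finset.sum_congr rfl
  intro i _
  simp
  ring

theorem sub_mp {μ : Measure (EuclideanSpace ℝ (Fin n))} [IsProbabilityMeasure μ] {a : ℝ}
    (hsub : LinearlySubgaussian μ a)
    (b : OrthonormalBasis (Fin n) ℝ (EuclideanSpace ℝ (Fin n)))
    (r : Fin n → ℝ) (hr : ∀ i, r i ≠ 0) (hr1 : ∀ i, r i ^ 2 ≤ 1) :
    LinearlySubgaussian (μ.map (mp b r hr)) a := by
  intro θ hθ
  rw [lintegral_map (by fun_prop) (mp b r hr).continuous.measurable]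
  simp_rw [inner_mp]
  apply sub_le_one hsub
  have h1 : ‖∑ i, (r i * θ i) • b i‖ ^ 2 ≤ 1 := by
    rw [norm_sum_sq]
    calc ∑ i, (r i * θ i) ^ 2 ≤ ∑ i, θ i ^ 2 := by
          apply Finset.sum_le_sum
          intro i _
          rw [mul_pow]
          nlinarith [hr1 i, sq_nonneg (θ i)]
      _ = ‖θ‖ ^ 2 := by
          rw [EuclideanSpace.norm_sq_eq]
          apply Finset.sum_congr rfl
          intro i _
          rw [norm_eq_abs, sq_abs]
      _ = 1 := by rw [hθ]; norm_num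
  nlinarith [norm_nonneg (∑ i, (r i * θ i) • b i)]

theorem grad_mp (b : OrthonormalBasis (Fin n) ℝ (EuclideanSpace ℝ (Fin n)))
    (r : Fin n → ℝ) (hr : ∀ i, r i ≠ 0) {f : EuclideanSpace ℝ (Fin n) → ℝ}
    (hf : ContDiff ℝ ∞ f) (x : EuclideanSpace ℝ (Fin n)) :
    ‖gradient (f ∘ (mp b r hr).symm) (mp b r hr x)‖ ^ 2
      = ∑ i, (r i ^ 2)⁻¹ * inner ℝ (b i) (gradient f x) ^ 2 := by
  rw [EuclideanSpace.norm_sq_eq]
  apply Finset.sum_congr rfl
  intro i _
  have hfd : DifferentiableAt ℝ f ((mp b r hr).symm (mp b r hr x)) :=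
    (hf.differentiable (by simp)) _
  have hgd : DifferentiableAt ℝ (f ∘ (mp b r hr).symm) (mp b r hr x) :=
    hfd.comp _ (mp b r hr).symm.differentiableAt
  have h1 : gradient (f ∘ (mp b r hr).symm) (mp b r hr x) i
      = fderiv ℝ (f ∘ (mp b r hr).symm) (mp b r hr x) (EuclideanSpace.single i (1 : ℝ)) := by
    have h2 : inner ℝ (gradient (f ∘ (mp b r hr).symm) (mp b r hr x))
        (EuclideanSpace.single i (1 : ℝ))
        = fderiv ℝ (f ∘ (mp b r hr).symm) (mp b r hr x) (EuclideanSpace.single i (1 : ℝ)) := by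
      unfold gradient
      exact InnerProductSpace.toDual_symm_apply
    rw [← h2, EuclideanSpace.inner_single_right]
    simp
  have h3 : fderiv ℝ (f ∘ (mp b r hr).symm) (mp b r hr x) (EuclideanSpace.single i (1 : ℝ))
      = (r i)⁻¹ * inner ℝ (b i) (gradient f x) := by
    rw [fderiv_comp _ hfd (mp b r hr).symm.differentiableAt]
    rw [ContinuousLinearMap.comp_apply, ContinuousLinearEquiv.fderiv]
    rw [ContinuousLinearEquiv.symm_apply_apply]
    have : ((mp b r hr).symm : EuclideanSpace ℝ (Fin n) →L[ℝ] EuclideanSpace ℝ (Fin n))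
        (EuclideanSpace.single i (1 : ℝ)) = (r i)⁻¹ • b i := mp_symm_single b r hr i
    rw [this, map_smul, smul_eq_mul]
    congr 1
    rw [real_inner_comm]
    unfold gradient
    exact InnerProductSpace.toDual_symm_apply.symm
  rw [h1, h3, norm_eq_abs, sq_abs, mul_pow, inv_pow]

/-- **Row LIN.** The inequality at all scales with weights in an orthonormal basis. -/
theorem lin : ∃ C : ℝ, 0 < C ∧ ∀ (n : ℕ), 1 ≤ n →
    ∀ (μ : Measure (EuclideanSpace ℝ (Fin n))) [IsProbabilityMeasure μ], HasLogConcaveDensity μ →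
    ∀ a : ℝ, 0 < a → LinearlySubgaussian μ a →
    ∀ (b : OrthonormalBasis (Fin n) ℝ (EuclideanSpace ℝ (Fin n))) (t : Fin n → ℝ),
    (∀ i, 0 < t i) → (∀ i, t i ≤ 1) →
    ∀ f : EuclideanSpace ℝ (Fin n) → ℝ, ContDiff ℝ ∞ f → HasCompactSupport f →
    ∀ k : ℝ, 1 ≤ k → Entropy μ (fun x => f x ^ 2) ≤
      C * k * a ^ 2 * ∑ i, (∫ x, inner ℝ (b i) (gradient f x) ^ 2 ∂μ) / t i
        + (1 + ∑ i, t i) * exp (-k) * ∫ x, f x ^ 2 ∂μ := by
  obtain ⟨C, hC, h⟩ := N.effectiveDimension_all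
  refine ⟨C, hC, fun n hn μ _ hlc a ha hsub b t ht0 ht1 f hf hfc k hk => ?_⟩
  set r : Fin n → ℝ := fun i => √(t i) with hr
  have hr0 : ∀ i, r i ≠ 0 := fun i => (Real.sqrt_pos.2 (ht0 i)).ne'
  have hrs : ∀ i, r i ^ 2 = t i := fun i => Real.sq_sqrt (ht0 i).le
  set e := mp b r hr0 with he
  have hemb : MeasurableEmbedding (e : EuclideanSpace ℝ (Fin n) → EuclideanSpace ℝ (Fin n)) :=
    e.toHomeomorph.measurableEmbedding
  have hme : Measurable (e : EuclideanSpace ℝ (Fin n) → EuclideanSpace ℝ (Fin n)) :=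
    e.continuous.measurable
  have : IsProbabilityMeasure (μ.map e) := Measure.isProbabilityMeasure_map hme.aemeasurable
  have hlc' : HasLogConcaveDensity (μ.map e) := H48.map_lc e hlc
  have hsub' : LinearlySubgaussian (μ.map e) a :=
    sub_mp hsub b r hr0 (fun i => by rw [hrs]; exact ht1 i)
  have hS : 0 ≤ ∑ i, t i := Finset.sum_nonneg fun i _ => (ht0 i).le
  have hW : ∫⁻ y, ENNReal.ofReal (exp (‖y‖ ^ 2 / (2 * a ^ 2))) ∂(μ.map e)
      ≤ ENNReal.ofReal (exp (1 + ∑ i, t i)) := by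
    rw [lintegral_map (by fun_prop) hme]
    simp_rw [he, norm_mp_sq, hrs]
    exact H48.wb ha hsub b.orthonormal t (fun i => (ht0 i).le) ht1
  have hg : ContDiff ℝ ∞ (f ∘ e.symm) := hf.comp e.symm.contDiff
  have hgc : HasCompactSupport (f ∘ e.symm) := hfc.comp_homeomorph e.symm.toHomeomorph
  have key := ((h n hn (μ.map e) hlc' a ha hsub').1 (1 + ∑ i, t i) (by linarith) hW
    (f ∘ e.symm) hg hgc).1 k hk
  have e1 : Entropy (μ.map e) (fun y => (f ∘ e.symm) y ^ 2) = Entropy μ (fun x => f x ^ 2) := by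
    unfold Entropy
    rw [hemb.integral_map, hemb.integral_map]
    simp
  have e2 : ∫ y, (f ∘ e.symm) y ^ 2 ∂(μ.map e) = ∫ x, f x ^ 2 ∂μ := by
    rw [hemb.integral_map]
    simp
  have hgcont : Continuous fun x => gradient f x :=
    (InnerProductSpace.toDual ℝ (EuclideanSpace ℝ (Fin n))).symm.continuous.comp
      (hf.continuous_fderiv (by simp))
  have hgsupp : HasCompactSupport fun x => gradient f x := by
    have := hfc.fderiv (𝕜 := ℝ)
    exact this.comp_left (g := (InnerProductSpace.toDual ℝ (EuclideanSpace ℝ (Fin n))).symm)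
      (map_zero _)
  have hint : ∀ i, Integrable (fun x => inner ℝ (b i) (gradient f x) ^ 2) μ := by
    intro i
    apply Continuous.integrable_of_hasCompactSupport
    · fun_prop
    · exact hgsupp.comp_left (g := fun v => inner ℝ (b i) v ^ 2) (by simp)
  have e3 : ∫ y, ‖gradient (f ∘ e.symm) y‖ ^ 2 ∂(μ.map e)
      = ∑ i, (∫ x, inner ℝ (b i) (gradient f x) ^ 2 ∂μ) / t i := by
    rw [hemb.integral_map]
    simp_rw [he, grad_mp b r hr0 hf, hrs]
    rw [integral_finsetSum _ (fun i _ => (hint i).const_mul _)]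
    apply Finset.sum_congr rfl
    intro i _
    rw [integral_const_mul, div_eq_inv_mul]
  rw [e1, e2, e3] at key
  exact key

end Vale.Agent.P245.H208
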