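import Mathlib

/-!
# The choice of the weights (row NUM of helper48)
-/

open Real

namespace Vale.Agent.P245.H208

/-- For a probability vector `p` and `k = 1 + log ((∑ √p_i)²)` there are weights `t_i ∈ (0, 1]` with
`∑ p_i / t_i ≤ 2` and `(1 + ∑ t_i) e^{-k} ≤ 4`. -/
theorem num {n : ℕ} (p : Fin n → ℝ) (hp : ∀ i, 0 ≤ p i) (hs : ∑ i, p i = 1) :
    ∃ k : ℝ, 1 ≤ k ∧ k = 1 + Real.log ((∑ i, √(p i)) ^ 2) ∧ ∃ t : Fin n → ℝ,
      (∀ i, 0 < t i) ∧ (∀ i, t i ≤ 1) ∧ k * ∑ i, p i / t i ≤ 2 * k ∧
        (1 + ∑ i, t i) * Real.exp (-k) ≤ 4 := by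
  classical
  have hn : 0 < n := by
    rcases Nat.eq_zero_or_pos n with h | h
    · subst h; simp at hs
    · exact h
  have hn' : (0 : ℝ) < n := by exact_mod_cast hn
  have hp1 : ∀ i, p i ≤ 1 := fun i => by
    rw [← hs]; exact Finset.single_le_sum (fun j _ => hp j) (Finset.mem_univ i)
  set N : ℝ := ∑ i, √(p i) with hN
  have hN1 : 1 ≤ N := by
    rw [← hs]
    apply Finset.sum_le_sum
    intro i _
    apply Real.le_sqrt_of_sq_le
    have := mul_le_mul_of_nonneg_left (hp1 i) (hp i)
    nlinarith [hp i]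
  have hN0 : 0 < N := by linarith
  set k : ℝ := 1 + Real.log (N ^ 2) with hk
  have hlog : 0 ≤ Real.log (N ^ 2) := Real.log_nonneg (by nlinarith)
  have hk1 : 1 ≤ k := by linarith
  set s : ℝ := exp (k / 2) with hs'
  have hs0 : 0 < s := exp_pos _
  have hss : s * s = exp k := by
    rw [hs', ← exp_add]; congr 1; ring
  have hsN : N ≤ s := by
    have h1 : exp k = exp 1 * N ^ 2 := by
      rw [hk, exp_add, Real.exp_log (by positivity)]
    have h2 : (1 : ℝ) ≤ exp 1 := Real.one_le_exp (by norm_num)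
    have h3 : N ^ 2 ≤ s ^ 2 := by
      rw [pow_two s, hss, h1]
      nlinarith [sq_nonneg N]
    exact le_of_sq_le_sq h3 hs0.le
  set t : Fin n → ℝ := fun i => if p i = 0 then 1 / n else min 1 (√(p i) * s) with ht
  have ht0 : ∀ i, 0 < t i := by
    intro i
    simp only [ht]
    split_ifs with h
    · positivity
    · have : 0 < √(p i) := Real.sqrt_pos.2 (lt_of_le_of_ne (hp i) (Ne.symm h))
      exact lt_min one_pos (by positivity)
  have ht1 : ∀ i, t i ≤ 1 := by
    intro i
    simp only [ht]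
    split_ifs with h
    · rw [div_le_one hn']
      exact_mod_cast hn
    · exact min_le_left _ _
  refine ⟨k, hk1, rfl, t, ht0, ht1, ?_, ?_⟩
  · have h1 : ∀ i, p i / t i ≤ p i + √(p i) / s := by
      intro i
      rw [div_le_iff₀ (ht0 i)]
      simp only [ht]
      split_ifs with h
      · simp [h]
      · have hpi : √(p i) * √(p i) = p i := Real.mul_self_sqrt (hp i)
        rcases le_total 1 (√(p i) * s) with h2 | h2
        · rw [min_eq_left h2]
          have : 0 ≤ √(p i) / s := by positivity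
          linarith
        · rw [min_eq_right h2]
          have e1 : (p i + √(p i) / s) * (√(p i) * s) = p i * (√(p i) * s) + √(p i) * √(p i) := by
            field_simp
          rw [e1, hpi]
          have : 0 ≤ p i * (√(p i) * s) := mul_nonneg (hp i) (by positivity)
          linarith
    have h2 : ∑ i, p i / t i ≤ 2 := by
      calc ∑ i, p i / t i ≤ ∑ i, (p i + √(p i) / s) := Finset.sum_le_sum fun i _ => h1 i
        _ = 1 + N / s := by rw [Finset.sum_add_distrib, hs, ← Finset.sum_div]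
        _ ≤ 1 + 1 := by
            gcongr
            rw [div_le_one hs0]; exact hsN
        _ = 2 := by norm_num
    calc k * ∑ i, p i / t i ≤ k * 2 := mul_le_mul_of_nonneg_left h2 (by linarith)
      _ = 2 * k := by ring
  · have h1 : ∀ i, t i ≤ 1 / n + √(p i) * s := by
      intro i
      simp only [ht]
      have h3 : 0 ≤ √(p i) * s := by positivity
      have h4 : (0 : ℝ) ≤ 1 / n := by positivity
      split_ifs with h
      · linarith
      · exact (min_le_right _ _).trans (by linarith)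
    have h2 : ∑ i, t i ≤ 1 + N * s := by
      calc ∑ i, t i ≤ ∑ i : Fin n, (1 / (n : ℝ) + √(p i) * s) := Finset.sum_le_sum fun i _ => h1 i
        _ = 1 + N * s := by
            rw [Finset.sum_add_distrib, ← Finset.sum_mul]
            simp only [Finset.sum_const, Finset.card_univ, Fintype.card_fin, nsmul_eq_mul]
            rw [mul_one_div_cancel hn'.ne']
    have h3 : exp (-k) = 1 / (s * s) := by
      rw [hss, exp_neg, one_div]
    have hs1 : 1 ≤ s := hN1.trans hsN
    rw [h3, mul_one_div, div_le_iff₀ (by positivity)]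
    nlinarith [mul_le_mul_of_nonneg_right hsN hs0.le, mul_le_mul hs1 hs1 zero_le_one hs0.le]

/-- The same for a vector `I ≥ 0` which is not normalised. -/
theorem num_I {n : ℕ} (I : Fin n → ℝ) (h0 : ∀ i, 0 ≤ I i) (hI : 0 < ∑ i, I i) :
    ∃ (k : ℝ) (t : Fin n → ℝ), k = 1 + Real.log ((∑ i, √(I i)) ^ 2 / ∑ i, I i) ∧ 1 ≤ k ∧
      (∀ i, 0 < t i ∧ t i ≤ 1) ∧ ∑ i, I i / t i ≤ 2 * ∑ i, I i ∧
        (1 + ∑ i, t i) * Real.exp (-k) ≤ 4 := by
  set S : ℝ := ∑ i, I i with hS
  obtain ⟨k, hk1, hk, t, ht0, ht1, h1, h2⟩ := num (fun i => I i / S)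
    (fun i => div_nonneg (h0 i) hI.le) (by rw [← Finset.sum_div, ← hS, div_self hI.ne'])
  refine ⟨k, t, ?_, hk1, fun i => ⟨ht0 i, ht1 i⟩, ?_, h2⟩
  · rw [hk]
    congr 2
    have : ∀ i, √(I i / S) = √(I i) / √S := fun i => Real.sqrt_div (h0 i) S
    simp_rw [this]
    rw [← Finset.sum_div, div_pow, Real.sq_sqrt hI.le]
  · have h3 : ∑ i, I i / S / t i ≤ 2 := by
      have : k * ∑ i, I i / S / t i ≤ k * 2 := by linarith
      exact le_of_mul_le_mul_left this (by linarith)
    have e1 : ∑ i, I i / t i = S * ∑ i, I i / S / t i := by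
      rw [Finset.mul_sum]
      apply Finset.sum_congr rfl
      intro i _
      field_simp
    rw [e1]
    nlinarith

end Vale.Agent.P245.H208
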