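import Mathlib
import Vale.Agent.P245.Defs

/-!
# The entropy of a shifted function (second copy of row SHIFT of helper48)
-/

open MeasureTheory Real
open scoped ContDiff

namespace Vale.Agent.P245.H208

/-- `M log M - M log t - M + t ≥ 0` -/
theorem bregman_nonneg {M t : ℝ} (hM : 0 ≤ M) (ht : 0 < t) :
    0 ≤ M * log M - M * log t - M + t := by
  rcases hM.eq_or_lt with h | h
  · rw [← h]; simp; exact ht.le
  · have h1 := Real.log_le_sub_one_of_pos (div_pos ht h)
    rw [Real.log_div ht.ne' h.ne'] at h1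
    have h2 := mul_le_mul_of_nonneg_left h1 hM
    have h3 : M * (t / M - 1) = t - M := by field_simp
    rw [h3] at h2
    linarith

/-- monotonicity -/
theorem mono_aux {t x y : ℝ} (ht : 0 < t) (htx : t ≤ x) (hxy : x ≤ y) :
    x * (log x - log t) ≤ y * (log y - log t) := by
  have h1 : log x ≤ log y := Real.log_le_log (ht.trans_le htx) hxy
  have h2 : log t ≤ log x := Real.log_le_log ht htx
  have hx : 0 ≤ x := ht.le.trans htx
  have hy : 0 ≤ y := hx.trans hxy
  calc x * (log x - log t) ≤ y * (log x - log t) :=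
        mul_le_mul_of_nonneg_right hxy (by linarith)
    _ ≤ y * (log y - log t) := mul_le_mul_of_nonneg_left (by linarith) hy

/-- the pointwise inequality -/
theorem shift_pt (c g v : ℝ) (hv : 0 < v) :
    (c + g) ^ 2 * log ((c + g) ^ 2) - (c + g) ^ 2 * log (max (c ^ 2) v) - (c + g) ^ 2
        + max (c ^ 2) v
      ≤ 4 * (g ^ 2 * log (g ^ 2) - g ^ 2 * log v - g ^ 2 + v) + 10 * g ^ 2 + 6 * v := by
  set x : ℝ := (c + g) ^ 2 with hx
  have hx0 : 0 ≤ x := sq_nonneg _
  have hA : 0 ≤ g ^ 2 * log (g ^ 2) - g ^ 2 * log v - g ^ 2 + v := bregman_nonneg (sq_nonneg g) hv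
  have hl4 : log 4 ≤ 1.4 := by
    have h1 := Real.log_two_lt_d9
    have h2 : log 4 = 2 * log 2 := by
      rw [show (4 : ℝ) = 2 ^ 2 by norm_num, Real.log_pow]; norm_num
    rw [h2]; linarith
  have hl40 : 0 ≤ log 4 := Real.log_nonneg (by norm_num)
  -- the far part
  have far : ∀ t : ℝ, 0 < t → v ≤ t → t < x → v ≤ g ^ 2 → x ≤ 4 * g ^ 2 →
      x * log x - x * log t - x + t
        ≤ 4 * (g ^ 2 * log (g ^ 2) - g ^ 2 * log v - g ^ 2 + v) + 10 * g ^ 2 + 6 * v := by
    intro t ht hvt htx hvg hxg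
    have hg0 : 0 < g ^ 2 := hv.trans_le hvg
    have h1 := mono_aux ht htx.le hxg
    have h2 : log (4 * g ^ 2) = log 4 + log (g ^ 2) := Real.log_mul (by norm_num) hg0.ne'
    have h3 : log v ≤ log t := Real.log_le_log hv hvt
    rw [h2] at h1
    have h4 : 4 * g ^ 2 * (log 4 + log (g ^ 2) - log t)
        ≤ 4 * g ^ 2 * (1.4 + log (g ^ 2) - log v) :=
      mul_le_mul_of_nonneg_left (by linarith) (by positivity)
    nlinarith
  rcases le_total (c ^ 2) v with hcv | hcv
  · rw [max_eq_right hcv]
    rcases le_or_gt x v with h | h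
    · rcases hx0.eq_or_lt with h0 | h0
      · rw [← h0]; simp only [zero_mul, sub_zero, zero_sub, neg_zero, zero_add]
        nlinarith [sq_nonneg g]
      · have h1 : log x ≤ log v := Real.log_le_log h0 h
        have h2 := mul_le_mul_of_nonneg_left h1 hx0
        nlinarith [sq_nonneg g]
    · rcases le_total (g ^ 2) v with hg | hg
      · have hx4 : x ≤ 4 * v := by
          rw [hx]; nlinarith [sq_nonneg (c - g)]
        have h1 := mono_aux hv h.le hx4
        have h2 : log (4 * v) = log 4 + log v := Real.log_mul (by norm_num) hv.ne'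
        rw [h2] at h1
        have h3 : 4 * v * log 4 ≤ 4 * v * 1.4 := mul_le_mul_of_nonneg_left hl4 (by positivity)
        nlinarith [sq_nonneg g]
      · exact far v hv le_rfl h hg (by rw [hx]; nlinarith [sq_nonneg (c - g)])
  · rw [max_eq_left hcv]
    have hc0 : 0 < c ^ 2 := hv.trans_le hcv
    rcases le_total (g ^ 2) (c ^ 2) with hg | hg
    · -- `x log x - x log t - x + t ≤ (x - t)²/t`
      have h1 : x * log x - x * log (c ^ 2) - x + c ^ 2 ≤ 9 * g ^ 2 := by
        rcases hx0.eq_or_lt with h0 | h0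
        · have hcg : c + g = 0 := by
            have : (c + g) ^ 2 = 0 := by rw [← hx, ← h0]
            exact pow_eq_zero_iff (two_ne_zero) |>.1 this
          have hgc : g = -c := by linarith
          rw [← h0]; simp only [zero_mul, sub_zero, zero_sub, neg_zero, zero_add]
          rw [hgc]; nlinarith
        · have h2 := Real.log_le_sub_one_of_pos (div_pos h0 hc0)
          rw [Real.log_div h0.ne' hc0.ne'] at h2
          have h3 := mul_le_mul_of_nonneg_left h2 hx0
          have h4 : x * (x / c ^ 2 - 1) - x + c ^ 2 = (x - c ^ 2) ^ 2 / c ^ 2 := by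
            have hc' : c ^ 2 ≠ 0 := hc0.ne'
            rw [eq_div_iff hc']
            have e0 : x / c ^ 2 * c ^ 2 = x := div_mul_cancel₀ _ hc'
            calc (x * (x / c ^ 2 - 1) - x + c ^ 2) * c ^ 2
                = x * (x / c ^ 2 * c ^ 2) - x * c ^ 2 - x * c ^ 2 + c ^ 2 * c ^ 2 := by ring
              _ = (x - c ^ 2) ^ 2 := by rw [e0]; ring
          have h5 : (x - c ^ 2) ^ 2 / c ^ 2 ≤ 9 * g ^ 2 := by
            rw [div_le_iff₀ hc0]
            have e1 : (x - c ^ 2) ^ 2 = g ^ 2 * (2 * c + g) ^ 2 := by rw [hx]; ring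
            rw [e1]
            have h6 : (2 * c + g) ^ 2 ≤ 9 * c ^ 2 := by
              nlinarith [sq_nonneg (c - g), sq_nonneg (c + g)]
            calc g ^ 2 * (2 * c + g) ^ 2 ≤ g ^ 2 * (9 * c ^ 2) :=
                  mul_le_mul_of_nonneg_left h6 (sq_nonneg g)
              _ = 9 * g ^ 2 * c ^ 2 := by ring
          linarith
      nlinarith [sq_nonneg g]
    · rcases le_or_gt x (c ^ 2) with h | h
      · have h3 : x * log x - x * log (c ^ 2) ≤ 0 := by
          rcases hx0.eq_or_lt with h0 | h0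
          · rw [← h0]; simp
          · have h1 : log x ≤ log (c ^ 2) := Real.log_le_log h0 h
            have h2 := mul_le_mul_of_nonneg_left h1 hx0
            linarith
        nlinarith [sq_nonneg g]
      · exact far (c ^ 2) hc0 hcv h (hcv.trans hg) (by rw [hx]; nlinarith [sq_nonneg (c - g)])

theorem int_bdd {n : ℕ} {μ : Measure (EuclideanSpace ℝ (Fin n))} [IsProbabilityMeasure μ]
    {g : EuclideanSpace ℝ (Fin n) → ℝ} (hg : Continuous g) {M : ℝ} (hM : ∀ x, |g x| ≤ M)
    {φ : ℝ → ℝ} (hφ : Continuous φ) : Integrable (fun x => φ (g x)) μ := by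
  obtain ⟨B, hB⟩ := (isCompact_Icc (a := -M) (b := M)).exists_bound_of_continuousOn
    hφ.continuousOn
  refine Integrable.of_bound (hφ.comp hg).aestronglyMeasurable B
    (Filter.Eventually.of_forall fun x => hB _ ?_)
  exact Set.mem_Icc.2 (abs_le.1 (hM x))

theorem cont_sq_log : Continuous fun s : ℝ => s ^ 2 * log (s ^ 2) :=
  Real.continuous_mul_log.comp (continuous_pow 2)

/-- **Row SHIFT.** `Ent(f²) ≤ 4 Ent((f - c)²) + 16 ∫ (f - c)²`. -/
theorem shift {n : ℕ} {μ : Measure (EuclideanSpace ℝ (Fin n))} [IsProbabilityMeasure μ]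
    {f : EuclideanSpace ℝ (Fin n) → ℝ} (hf : Continuous f) (hfc : HasCompactSupport f) (c : ℝ) :
    Entropy μ (fun x => f x ^ 2)
      ≤ 4 * Entropy μ (fun x => (f x - c) ^ 2) + 16 * ∫ x, (f x - c) ^ 2 ∂μ := by
  obtain ⟨M, hM⟩ := hf.bounded_above_of_compact_support hfc
  have hMf : ∀ x, |f x| ≤ M := fun x => by simpa using hM x
  have hMg : ∀ x, |f x - c| ≤ M + |c| := fun x => (abs_sub _ _).trans (by linarith [hMf x])
  have hgc : Continuous fun x => f x - c := hf.sub continuous_const
  have i1 : Integrable (fun x => f x ^ 2) μ := int_bdd hf hMf (continuous_pow 2)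
  have i2 : Integrable (fun x => f x ^ 2 * log (f x ^ 2)) μ := int_bdd hf hMf cont_sq_log
  have i3 : Integrable (fun x => (f x - c) ^ 2) μ := int_bdd hgc hMg (continuous_pow 2)
  have i4 : Integrable (fun x => (f x - c) ^ 2 * log ((f x - c) ^ 2)) μ :=
    int_bdd hgc hMg cont_sq_log
  unfold Entropy
  set v : ℝ := ∫ x, (f x - c) ^ 2 ∂μ with hv
  have hv0 : 0 ≤ v := integral_nonneg fun x => sq_nonneg _
  rcases hv0.eq_or_lt with h0 | hvp
  · have hae : (fun x => (f x - c) ^ 2) =ᵐ[μ] 0 :=
      (integral_eq_zero_iff_of_nonneg (fun x => sq_nonneg _) i3).1 h0.symm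
    have h1 : ∀ᵐ x ∂μ, f x = c := by
      filter_upwards [hae] with x hx
      have : (f x - c) ^ 2 = 0 := hx
      have := pow_eq_zero_iff (two_ne_zero) |>.1 this
      linarith
    have e1 : ∫ x, f x ^ 2 * log (f x ^ 2) ∂μ = c ^ 2 * log (c ^ 2) := by
      rw [integral_congr_ae (g := fun _ => c ^ 2 * log (c ^ 2))
        (by filter_upwards [h1] with x hx; rw [hx])]
      simp
    have e2 : ∫ x, f x ^ 2 ∂μ = c ^ 2 := by
      rw [integral_congr_ae (g := fun _ => c ^ 2) (by filter_upwards [h1] with x hx; rw [hx])]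
      simp
    have e3 : ∫ x, (f x - c) ^ 2 * log ((f x - c) ^ 2) ∂μ = 0 := by
      rw [integral_congr_ae (g := fun _ => (0 : ℝ))
        (by filter_upwards [h1] with x hx; rw [hx]; simp)]
      simp
    rw [e1, e2, e3, ← h0]
    simp
  · set t : ℝ := max (c ^ 2) v with ht
    have ht0 : 0 < t := hvp.trans_le (le_max_right _ _)
    have hM0 : 0 ≤ ∫ x, f x ^ 2 ∂μ := integral_nonneg fun x => sq_nonneg _
    have h1 := bregman_nonneg hM0 ht0
    have hpt : ∀ x, f x ^ 2 * log (f x ^ 2) - f x ^ 2 * log t - f x ^ 2 + t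
        ≤ 4 * ((f x - c) ^ 2 * log ((f x - c) ^ 2) - (f x - c) ^ 2 * log v - (f x - c) ^ 2 + v)
          + 10 * (f x - c) ^ 2 + 6 * v := by
      intro x
      have := shift_pt c (f x - c) v hvp
      rw [show c + (f x - c) = f x by ring] at this
      exact this
    have hpt' : ∀ x, f x ^ 2 * log (f x ^ 2) ≤ (log t + 1) * f x ^ 2
        + 4 * ((f x - c) ^ 2 * log ((f x - c) ^ 2)) + (6 - 4 * log v) * (f x - c) ^ 2
        + (10 * v - t) := by
      intro x
      have := hpt x
      linarith
    have k1 : Integrable (fun x => (log t + 1) * f x ^ 2) μ := i1.const_mul _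
    have k2 : Integrable (fun x => 4 * ((f x - c) ^ 2 * log ((f x - c) ^ 2))) μ := i4.const_mul _
    have k3 : Integrable (fun x => (6 - 4 * log v) * (f x - c) ^ 2) μ := i3.const_mul _
    have k12 : Integrable (fun x => (log t + 1) * f x ^ 2
        + 4 * ((f x - c) ^ 2 * log ((f x - c) ^ 2))) μ := k1.add k2
    have k123 : Integrable (fun x => (log t + 1) * f x ^ 2
        + 4 * ((f x - c) ^ 2 * log ((f x - c) ^ 2)) + (6 - 4 * log v) * (f x - c) ^ 2) μ :=
      k12.add k3
    have k4 : Integrable (fun _ : EuclideanSpace ℝ (Fin n) => 10 * v - t) μ := integrable_const _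
    have kall : Integrable (fun x => (log t + 1) * f x ^ 2
        + 4 * ((f x - c) ^ 2 * log ((f x - c) ^ 2)) + (6 - 4 * log v) * (f x - c) ^ 2
        + (10 * v - t)) μ := k123.add k4
    have h2 := integral_mono i2 kall hpt'
    rw [integral_add k123 k4, integral_add k12 k3, integral_add k1 k2, integral_const_mul,
      integral_const_mul, integral_const_mul, ← hv] at h2
    simp only [integral_const, probReal_univ, smul_eq_mul, one_mul] at h2
    linarith

end Vale.Agent.P245.H208
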