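import Vale.Agent.P245.H847.HandIn
import Vale.Agent.P245.H208.Lin
import Vale.Agent.P245.H208.Num
import Vale.Agent.P245.H208.Shift
import Vale.Agent.P245.H48.Lim
import Vale.Agent.P245.H662.Num2

/-!
# Effective rank of the gradient covariance (MAIN, second copy)
-/

open MeasureTheory Real
open scoped ContDiff

namespace Vale.Agent.P245.H208

theorem ent_nonneg {n : ℕ} {μ : Measure (EuclideanSpace ℝ (Fin n))} [IsProbabilityMeasure μ]
    {f : EuclideanSpace ℝ (Fin n) → ℝ} (hf : Continuous f) (hfc : HasCompactSupport f) :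
    0 ≤ Entropy μ (fun x => f x ^ 2) := by
  obtain ⟨M, hM⟩ := hf.bounded_above_of_compact_support hfc
  have hMf : ∀ x, |f x| ≤ M := fun x => by simpa using hM x
  have i1 : Integrable (fun x => f x ^ 2) μ := int_bdd hf hMf (continuous_pow 2)
  have i2 : Integrable (fun x => f x ^ 2 * log (f x ^ 2)) μ := int_bdd hf hMf cont_sq_log
  unfold Entropy
  set v : ℝ := ∫ x, f x ^ 2 ∂μ with hv
  have hv0 : 0 ≤ v := integral_nonneg fun x => sq_nonneg _
  rcases hv0.eq_or_lt with h0 | hvp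
  · have hae : (fun x => f x ^ 2) =ᵐ[μ] 0 :=
      (integral_eq_zero_iff_of_nonneg (fun x => sq_nonneg _) i1).1 h0.symm
    have e3 : ∫ x, f x ^ 2 * log (f x ^ 2) ∂μ = 0 := by
      rw [integral_congr_ae (g := fun _ => (0 : ℝ))
        (by filter_upwards [hae] with x hx; rw [hx]; simp)]
      simp
    rw [e3, ← h0]; simp
  · have hpt : ∀ x, (log v + 1) * f x ^ 2 - v ≤ f x ^ 2 * log (f x ^ 2) := by
      intro x
      have := bregman_nonneg (sq_nonneg (f x)) hvp
      linarith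
    have k1 : Integrable (fun x => (log v + 1) * f x ^ 2) μ := i1.const_mul _
    have h2 := integral_mono (k1.sub (integrable_const v)) i2 hpt
    rw [integral_sub' k1 (integrable_const v), integral_const_mul, ← hv] at h2
    simp only [integral_const, probReal_univ, smul_eq_mul, one_mul] at h2
    linarith

theorem ent_zero {n : ℕ} {μ : Measure (EuclideanSpace ℝ (Fin n))} [IsProbabilityMeasure μ]
    {f : EuclideanSpace ℝ (Fin n) → ℝ} (hf : Continuous f) (hfc : HasCompactSupport f)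
    (h0 : ∫ x, f x ^ 2 ∂μ = 0) : Entropy μ (fun x => f x ^ 2) = 0 := by
  obtain ⟨M, hM⟩ := hf.bounded_above_of_compact_support hfc
  have hMf : ∀ x, |f x| ≤ M := fun x => by simpa using hM x
  have i1 : Integrable (fun x => f x ^ 2) μ := int_bdd hf hMf (continuous_pow 2)
  have hae : (fun x => f x ^ 2) =ᵐ[μ] 0 :=
    (integral_eq_zero_iff_of_nonneg (fun x => sq_nonneg _) i1).1 h0
  have e3 : ∫ x, f x ^ 2 * log (f x ^ 2) ∂μ = 0 := by
    rw [integral_congr_ae (g := fun _ => (0 : ℝ))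
      (by filter_upwards [hae] with x hx; rw [hx]; simp)]
    simp
  unfold Entropy
  rw [e3, h0]; simp

theorem sum_energy {n : ℕ} {μ : Measure (EuclideanSpace ℝ (Fin n))} [IsProbabilityMeasure μ]
    (b : OrthonormalBasis (Fin n) ℝ (EuclideanSpace ℝ (Fin n)))
    {f : EuclideanSpace ℝ (Fin n) → ℝ} (hf : ContDiff ℝ ∞ f) (hfc : HasCompactSupport f) :
    ∑ i, ∫ x, inner ℝ (b i) (gradient f x) ^ 2 ∂μ = ∫ x, ‖gradient f x‖ ^ 2 ∂μ := by
  have hgcont : Continuous fun x => gradient f x :=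
    (InnerProductSpace.toDual ℝ (EuclideanSpace ℝ (Fin n))).symm.continuous.comp
      (hf.continuous_fderiv (by simp))
  have hgsupp : HasCompactSupport fun x => gradient f x := by
    have := hfc.fderiv (𝕜 := ℝ)
    exact this.comp_left (g := (InnerProductSpace.toDual ℝ (EuclideanSpace ℝ (Fin n))).symm)
      (map_zero _)
  have hint : ∀ i, Integrable (fun x => inner ℝ (b i) (gradient f x) ^ 2) μ := by
    intro i
    apply Continuous.integrable_of_hasCompactSupport
    · fun_prop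
    · exact hgsupp.comp_left (g := fun v => inner ℝ (b i) v ^ 2) (by simp)
  rw [← integral_finsetSum _ (fun i _ => hint i)]
  apply integral_congr_ae
  refine Filter.Eventually.of_forall fun x => ?_
  have h1 := b.sum_sq_norm_inner_right (gradient f x)
  simp only
  rw [← h1]
  apply Finset.sum_congr rfl
  intro i _
  rw [Real.norm_eq_abs, sq_abs]

/-- the main inequality, from the affine Poincaré inequality -/
theorem main {C₂ : ℝ} (hC₂ : 0 < C₂)
    (hkls : ∀ (n : ℕ) (μ : Measure (EuclideanSpace ℝ (Fin n))) [IsProbabilityMeasure μ],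
      HasLogConcaveDensity μ → ∀ (b : Fin n → ℝ) (K : Matrix (Fin n) (Fin n) ℝ),
      (∀ i, ∫ x, x i ∂μ = b i) → (∀ i j, ∫ x, (x i - b i) * (x j - b j) ∂μ = K i j) →
      ∀ f : EuclideanSpace ℝ (Fin n) → ℝ, ContDiff ℝ ∞ f → HasCompactSupport f →
        (∫ x, f x ^ 2 ∂μ) - (∫ x, f x ∂μ) ^ 2 ≤
          C₂ * ∫ x, ∑ i, ∑ j, K i j * (gradient f x i * gradient f x j) ∂μ) :
    ∃ C : ℝ, 0 < C ∧ ∀ (n : ℕ), 1 ≤ n →
    ∀ (μ : Measure (EuclideanSpace ℝ (Fin n))) [IsProbabilityMeasure μ], HasLogConcaveDensity μ →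
    ∀ a : ℝ, 0 < a → LinearlySubgaussian μ a →
    ∀ b : OrthonormalBasis (Fin n) ℝ (EuclideanSpace ℝ (Fin n)),
    ∀ f : EuclideanSpace ℝ (Fin n) → ℝ, ContDiff ℝ ∞ f → HasCompactSupport f →
    ∀ N : ℝ, N = (∑ i, √(∫ x, inner ℝ (b i) (gradient f x) ^ 2 ∂μ)) ^ 2
        / ∫ x, ‖gradient f x‖ ^ 2 ∂μ →
      Entropy μ (fun x => f x ^ 2) ≤
          C * (1 + log N) * a ^ 2 * ∫ x, ‖gradient f x‖ ^ 2 ∂μ ∧
      Entropy μ (fun x => f x ^ 2) ≤
          C * (1 + log (1 + N * (∫ x, f x ^ 2 ∂μ) / ((∫ x, f x ^ 2 ∂μ)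
            + Entropy μ (fun x => f x ^ 2)))) * a ^ 2 * ∫ x, ‖gradient f x‖ ^ 2 ∂μ := by
  obtain ⟨C₁, hC₁, hlin⟩ := lin
  obtain ⟨C₃, hC₃, heff⟩ := N.effectiveDimension_all
  have hand := H847.handin hC₂ hkls
  refine ⟨16 * (8 * C₁ + 6400 * C₂), by positivity, ?_⟩
  intro n hn μ _ hlc a ha hsub b f hf hfc N hN
  have hE0 : 0 ≤ Entropy μ (fun x => f x ^ 2) := ent_nonneg hf.continuous hfc
  set I : Fin n → ℝ := fun i => ∫ x, inner ℝ (b i) (gradient f x) ^ 2 ∂μ with hI
  have hI0 : ∀ i, 0 ≤ I i := fun i => integral_nonneg fun x => sq_nonneg _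
  have hsum : ∑ i, I i = ∫ x, ‖gradient f x‖ ^ 2 ∂μ := sum_energy b hf hfc
  have hJ0 : 0 ≤ ∑ i, I i := Finset.sum_nonneg fun i _ => hI0 i
  have hS0 : 0 ≤ ∫ x, f x ^ 2 ∂μ := integral_nonneg fun x => sq_nonneg _
  rw [← hsum] at hN ⊢
  rcases hJ0.eq_or_lt with hJ | hJ
  · -- the gradient vanishes
    have hn1 : (1 : ℝ) ≤ n := by exact_mod_cast hn
    obtain ⟨g1, -, g3⟩ := heff n hn μ hlc a ha hsub
    have h1 := (g1 (2 * n) (by linarith) g3 f hf hfc).2
    rw [← hsum, ← hJ] at h1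
    rw [← hJ]
    simp only [mul_zero] at h1 ⊢
    exact ⟨h1, h1⟩
  · -- the main case
    have hvar : (∫ x, f x ^ 2 ∂μ) - (∫ x, f x ∂μ) ^ 2 ≤ 200 * C₂ * a ^ 2 * ∑ i, I i := by
      rw [hsum]
      exact ((hand n μ hlc _ _ (fun i => rfl) (fun i j => rfl) f hf hfc).2.2 a ha hsub).1
    obtain ⟨M, hM⟩ := hf.continuous.bounded_above_of_compact_support hfc
    have hMf : ∀ x, |f x| ≤ M := fun x => by simpa using hM x
    have i0 : Integrable f μ := by
      simpa using int_bdd (μ := μ) hf.continuous hMf (φ := fun s => s) continuous_id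
    have i1 : Integrable (fun x => f x ^ 2) μ := int_bdd hf.continuous hMf (continuous_pow 2)
    set c : ℝ := ∫ x, f x ∂μ with hc
    have hv : ∫ x, (f x - c) ^ 2 ∂μ = (∫ x, f x ^ 2 ∂μ) - c ^ 2 := by
      have e : ∀ x, (f x - c) ^ 2 = f x ^ 2 - 2 * c * f x + c ^ 2 := fun x => by ring
      simp_rw [e]
      have j1 : Integrable (fun x => 2 * c * f x) μ := i0.const_mul _
      have j2 : Integrable (fun x => f x ^ 2 - 2 * c * f x) μ := i1.sub j1
      rw [integral_add j2 (integrable_const _), integral_sub i1 j1, integral_const_mul, ← hc]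
      simp only [integral_const, probReal_univ, smul_eq_mul, one_mul]
      ring
    have hv0 : 0 ≤ ∫ x, (f x - c) ^ 2 ∂μ := integral_nonneg fun x => sq_nonneg _
    have hvS : ∫ x, (f x - c) ^ 2 ∂μ ≤ 200 * C₂ * a ^ 2 * ∑ i, I i := by rw [hv]; exact hvar
    -- first inequality
    have first : Entropy μ (fun x => f x ^ 2)
        ≤ (8 * C₁ + 6400 * C₂) * a ^ 2 * (1 + log ((∑ i, √(I i)) ^ 2 / ∑ i, I i)) * ∑ i, I i := by
      obtain ⟨k, t, hk, hk1, ht, hIt, hst⟩ := num_I I hI0 hJ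
      have hk0 : 0 ≤ k := by linarith
      have hlim := H48.lim_shift (μ := μ) b (fun i => C₁ * k * a ^ 2 / t i)
        (fun i => div_nonneg (by positivity) (ht i).1.le) ((1 + ∑ i, t i) * exp (-k))
        (mul_nonneg (add_nonneg zero_le_one (Finset.sum_nonneg fun i _ => (ht i).1.le))
          (exp_pos _).le)
        (by
          intro g hg hgc
          refine (hlin n hn μ hlc a ha hsub b t (fun i => (ht i).1) (fun i => (ht i).2) g hg hgc
            k hk1).trans (le_of_eq ?_)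
          rw [Finset.mul_sum]
          congr 1
          apply Finset.sum_congr rfl
          intro i _
          ring) c f hf hfc
      have e1 : ∑ i, C₁ * k * a ^ 2 / t i * ∫ x, (inner ℝ (b i) (gradient f x)) ^ 2 ∂μ
          = C₁ * k * a ^ 2 * ∑ i, I i / t i := by
        rw [Finset.mul_sum]
        apply Finset.sum_congr rfl
        intro i _
        rw [hI]
        ring
      rw [e1] at hlim
      have h2 : C₁ * k * a ^ 2 * ∑ i, I i / t i ≤ C₁ * k * a ^ 2 * (2 * ∑ i, I i) :=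
        mul_le_mul_of_nonneg_left hIt (by positivity)
      have h3 : (1 + ∑ i, t i) * exp (-k) * ∫ x, (f x - c) ^ 2 ∂μ
          ≤ 4 * ∫ x, (f x - c) ^ 2 ∂μ := mul_le_mul_of_nonneg_right hst hv0
      have h4 := shift (μ := μ) hf.continuous hfc c
      have h5 : Entropy μ (fun x => f x ^ 2)
          ≤ 8 * C₁ * k * a ^ 2 * ∑ i, I i + 6400 * C₂ * a ^ 2 * ∑ i, I i := by
        nlinarith
      have h6 : 6400 * C₂ * a ^ 2 * ∑ i, I i ≤ 6400 * C₂ * a ^ 2 * k * ∑ i, I i := by
        have : 0 ≤ 6400 * C₂ * a ^ 2 * (k - 1) * ∑ i, I i :=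
          mul_nonneg (mul_nonneg (by positivity) (by linarith)) hJ.le
        nlinarith
      rw [← hk]
      calc Entropy μ (fun x => f x ^ 2)
          ≤ 8 * C₁ * k * a ^ 2 * ∑ i, I i + 6400 * C₂ * a ^ 2 * k * ∑ i, I i := by linarith
        _ = (8 * C₁ + 6400 * C₂) * a ^ 2 * k * ∑ i, I i := by ring
    have hk1 : 0 ≤ 1 + log ((∑ i, √(I i)) ^ 2 / ∑ i, I i) := by
      obtain ⟨k, t, hk, hk1, -⟩ := num_I I hI0 hJ
      rw [← hk]; linarith
    constructor
    · rw [hN]
      refine first.trans ?_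
      have : 0 ≤ (8 * C₁ + 6400 * C₂) * a ^ 2 * (1 + log ((∑ i, √(I i)) ^ 2 / ∑ i, I i))
          * ∑ i, I i := mul_nonneg (mul_nonneg (by positivity) hk1) hJ.le
      calc (8 * C₁ + 6400 * C₂) * a ^ 2 * (1 + log ((∑ i, √(I i)) ^ 2 / ∑ i, I i)) * ∑ i, I i
          ≤ 16 * ((8 * C₁ + 6400 * C₂) * a ^ 2 * (1 + log ((∑ i, √(I i)) ^ 2 / ∑ i, I i))
          * ∑ i, I i) := by linarith
        _ = _ := by ring
    · rcases hS0.eq_or_lt with hS | hS
      · rw [ent_zero hf.continuous hfc hS.symm, ← hS]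
        simp only [mul_zero, zero_div, add_zero, log_one]
        positivity
      · have h7 := H662.num2 I hI0 hJ ((8 * C₁ + 6400 * C₂) * a ^ 2)
          (Entropy μ (fun x => f x ^ 2)) (∫ x, f x ^ 2 ∂μ) (by positivity) hS hE0
          (by
            intro k t hk ht
            refine (hlin n hn μ hlc a ha hsub b t (fun i => (ht i).1) (fun i => (ht i).2) f hf hfc
              k hk).trans ?_
            have h8 : 0 ≤ ∑ i, I i / t i :=
              Finset.sum_nonneg fun i _ => div_nonneg (hI0 i) (ht i).1.le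
            have h9 : C₁ * k * a ^ 2 * ∑ i, I i / t i
                ≤ (8 * C₁ + 6400 * C₂) * a ^ 2 * k * ∑ i, I i / t i := by
              have : C₁ * k * a ^ 2 ≤ (8 * C₁ + 6400 * C₂) * a ^ 2 * k := by
                have h10 : 0 ≤ (7 * C₁ + 6400 * C₂) * a ^ 2 * k := by positivity
                nlinarith
              exact mul_le_mul_of_nonneg_right this h8
            linarith) first
        rw [hN]
        refine h7.trans (le_of_eq ?_)
        ring

end Vale.Agent.P245.H208
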